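import Vale.Agent.P097.H146.Prof
import Vale.Agent.P097.H226.W.Defs

/-!
# P097 / case [c] / block (T), straight line : the disc bound around a pick

`td_core` : one function `g` on the wide tube near the apex `0` (the pick after translation), window
bounds of type (G) on the axis windows, an absolute bound of double exponential type in the relative
depth, and a bound on a compact at the macroscopic scale give the slow growth
`|g (r ζ) - g#| ≤ E (r/ρ)^(1/2) (1 + log (r/ρ)) exp (C + C (r/R₀) (A + log (1/E)))`.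
-/

set_option linter.all false

open Complex Metric Filter Topology Set

namespace Vale.Agent.P097.H690.St

open Vale.Agent.P097.H146 Vale.Agent.P097.H226.W

/-- heights of the wide tube -/
def Kd (δ : ℝ) : Set (ℝ × ℝ) := {h | 0 < h.2 ∧ h.1 < δ * h.2}

/-- base direction -/
def aa : ℝ × ℝ := (-1, 1)

theorem Kd_open (δ : ℝ) : IsOpen (Kd δ) :=
  (isOpen_lt continuous_const continuous_snd).inter
    (isOpen_lt continuous_fst (continuous_const.mul continuous_snd))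

theorem Kd_add {δ : ℝ} : ∀ y ∈ Kd δ, ∀ y' ∈ Kd δ, y + y' ∈ Kd δ := by
  rintro y ⟨h1, h2⟩ y' ⟨h3, h4⟩
  refine ⟨?_, ?_⟩
  · show 0 < y.2 + y'.2
    linarith
  · show y.1 + y'.1 < δ * (y.2 + y'.2)
    linarith

theorem Kd_smul {δ : ℝ} : ∀ s : ℝ, 0 < s → ∀ y ∈ Kd δ, s • y ∈ Kd δ := by
  rintro s hs y ⟨h1, h2⟩
  refine ⟨?_, ?_⟩
  · show 0 < s * y.2
    positivity
  · show s * y.1 < δ * (s * y.2)
    nlinarith

theorem aa_mem {δ : ℝ} (hδ : 0 < δ) : aa ∈ Kd δ := by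
  refine ⟨?_, ?_⟩
  · show (0 : ℝ) < 1
    norm_num
  · show (-1 : ℝ) < δ * 1
    linarith

theorem im2_mem {δ : ℝ} {z : ℂ × ℂ} : im2 z ∈ Kd δ ↔ z ∈ Wd δ := Iff.rfl

theorem im2_smul (r : ℝ) (z : ℂ × ℂ) : im2 ((r : ℂ) • z) = r • im2 z := by
  ext <;> simp [im2]

theorem smul_pt (r : ℝ) (y v : ℝ × ℝ) : (r : ℂ) • pt y v = pt (r • y) (r • v) := by
  ext1
  · show (r : ℂ) * ((y.1 : ℂ) + I * v.1) = ((r * y.1 : ℝ) : ℂ) + I * ((r * v.1 : ℝ) : ℂ)
    push_cast; ring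
  · show (r : ℂ) * ((y.2 : ℂ) + I * v.2) = ((r * y.2 : ℝ) : ℂ) + I * ((r * v.2 : ℝ) : ℂ)
    push_cast; ring

/-- the elementary absorption -/
theorem absorb {C₁ K X D : ℝ} (hC₁ : 1 ≤ C₁) (hK : 0 ≤ K) (hX : 1 ≤ X) (hD : 1 ≤ D) :
    ∃ C ≥ 0, ∀ k : ℕ, ∀ q : ℝ, 0 < q → q ≤ D * ((k : ℝ) + 1) ^ (3 / 2 : ℝ) →
      C₁ * (X * 2 ^ (k + 1)) ^ (1 / 2 : ℝ) * q ^ 2 * (1 + Real.log (X * 2 ^ (k + 1))) *
        Real.exp (Real.exp (K * q ^ (1 / 2 : ℝ))) ≤
      Real.exp (Real.exp (C * ((k : ℝ) + 1) ^ (3 / 4 : ℝ))) := by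
  set M : ℝ := C₁ + 2 * X + 2 + 2 * D with hM
  have hM0 : 0 ≤ M := by rw [hM]; linarith
  have hsD : 0 ≤ D ^ (1 / 2 : ℝ) := Real.rpow_nonneg (by linarith) _
  refine ⟨M + 2 + K * D ^ (1 / 2 : ℝ), by positivity, ?_⟩
  intro k q hq hqD
  set x : ℝ := (k : ℝ) + 1 with hx
  have hx1 : 1 ≤ x := by rw [hx]; linarith [Nat.cast_nonneg (α := ℝ) k]
  have hx0 : 0 < x := by linarith
  set u : ℝ := x ^ (3 / 4 : ℝ) with hu
  have hu1 : 1 ≤ u := Real.one_le_rpow hx1 (by norm_num)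
  have hu0 : 0 < u := by linarith
  have hu2 : x ^ (3 / 2 : ℝ) = u ^ 2 := by
    rw [hu, ← Real.rpow_natCast, ← Real.rpow_mul hx0.le]
    norm_num
  have hxu : x ≤ u ^ 2 := by
    rw [← hu2]
    calc x = x ^ (1 : ℝ) := (Real.rpow_one x).symm
      _ ≤ x ^ (3 / 2 : ℝ) := Real.rpow_le_rpow_of_exponent_le hx1 (by norm_num)
  rw [hu2] at hqD
  -- the factors
  have e1 : C₁ ≤ Real.exp C₁ := by linarith [Real.add_one_le_exp C₁]
  have hS1 : 1 ≤ X * 2 ^ (k + 1) := by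
    have : (1 : ℝ) ≤ 2 ^ (k + 1) := one_le_pow₀ one_le_two
    nlinarith
  have hS : X * 2 ^ (k + 1) ≤ Real.exp (X + x) := by
    rw [Real.exp_add]
    have h1 : X ≤ Real.exp X := by linarith [Real.add_one_le_exp X]
    have h2 : (2 : ℝ) ^ (k + 1) ≤ Real.exp x := by
      have h3 : (2 : ℝ) ≤ Real.exp 1 := by linarith [Real.add_one_le_exp (1 : ℝ)]
      calc (2 : ℝ) ^ (k + 1) ≤ (Real.exp 1) ^ (k + 1) := pow_le_pow_left₀ (by norm_num) h3 _
        _ = Real.exp x := by rw [← Real.exp_nat_mul]; congr 1; rw [hx]; push_cast; ring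
    exact mul_le_mul h1 h2 (by positivity) (Real.exp_pos _).le
  have e2 : (X * 2 ^ (k + 1)) ^ (1 / 2 : ℝ) ≤ Real.exp (X + x) := by
    refine le_trans ?_ hS
    calc (X * 2 ^ (k + 1)) ^ (1 / 2 : ℝ) ≤ (X * 2 ^ (k + 1)) ^ (1 : ℝ) :=
          Real.rpow_le_rpow_of_exponent_le hS1 (by norm_num)
      _ = _ := Real.rpow_one _
  have e3 : q ^ 2 ≤ Real.exp (2 * (D * u ^ 2)) := by
    have h1 : q ≤ Real.exp (D * u ^ 2) := hqD.trans (by linarith [Real.add_one_le_exp (D * u ^ 2)])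
    calc q ^ 2 ≤ (Real.exp (D * u ^ 2)) ^ 2 := pow_le_pow_left₀ hq.le h1 2
      _ = Real.exp (2 * (D * u ^ 2)) := by rw [← Real.exp_nat_mul]; norm_num
  have e4 : 1 + Real.log (X * 2 ^ (k + 1)) ≤ Real.exp (X + x) := by
    have := Real.log_le_sub_one_of_pos (x := X * 2 ^ (k + 1)) (by linarith)
    linarith
  have e4' : 0 ≤ 1 + Real.log (X * 2 ^ (k + 1)) := by linarith [Real.log_nonneg hS1]
  have e5 : Real.exp (K * q ^ (1 / 2 : ℝ)) ≤ Real.exp (K * D ^ (1 / 2 : ℝ) * u) := by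
    apply Real.exp_le_exp.2
    rw [mul_assoc]
    apply mul_le_mul_of_nonneg_left _ hK
    calc q ^ (1 / 2 : ℝ) ≤ (D * u ^ 2) ^ (1 / 2 : ℝ) := Real.rpow_le_rpow hq.le hqD (by norm_num)
      _ = D ^ (1 / 2 : ℝ) * u := by
        rw [Real.mul_rpow (by linarith) (by positivity), ← Real.rpow_natCast u 2,
          ← Real.rpow_mul hu0.le]
        norm_num
  have hprod : C₁ * (X * 2 ^ (k + 1)) ^ (1 / 2 : ℝ) * q ^ 2 * (1 + Real.log (X * 2 ^ (k + 1))) *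
        Real.exp (Real.exp (K * q ^ (1 / 2 : ℝ))) ≤
      Real.exp C₁ * Real.exp (X + x) * Real.exp (2 * (D * u ^ 2)) * Real.exp (X + x) *
        Real.exp (Real.exp (K * D ^ (1 / 2 : ℝ) * u)) := by
    have e2' : 0 ≤ (X * 2 ^ (k + 1)) ^ (1 / 2 : ℝ) := Real.rpow_nonneg (by linarith) _
    have hq2 : 0 ≤ q ^ 2 := by positivity
    refine mul_le_mul (mul_le_mul (mul_le_mul (mul_le_mul e1 e2 e2' (Real.exp_pos _).le) e3 hq2
      (by positivity)) e4 e4' (by positivity)) (Real.exp_le_exp.2 e5) (Real.exp_pos _).le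
      (by positivity)
  refine hprod.trans ?_
  rw [← Real.exp_add, ← Real.exp_add, ← Real.exp_add, ← Real.exp_add]
  apply Real.exp_le_exp.2
  have h1 : C₁ + (X + x) + 2 * (D * u ^ 2) + (X + x) ≤ M * u ^ 2 := by
    have h2 : 1 ≤ u ^ 2 := one_le_pow₀ hu1
    have h3 : C₁ ≤ C₁ * u ^ 2 := by nlinarith
    have h4 : X ≤ X * u ^ 2 := by nlinarith
    rw [hM]
    nlinarith
  have h2 : M * u ^ 2 ≤ M * Real.exp (2 * u) := by
    apply mul_le_mul_of_nonneg_left _ hM0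
    have h3 : u ≤ Real.exp u := by linarith [Real.add_one_le_exp u]
    calc u ^ 2 ≤ (Real.exp u) ^ 2 := pow_le_pow_left₀ hu0.le h3 2
      _ = Real.exp (2 * u) := by rw [← Real.exp_nat_mul]; norm_num
  have h3 : Real.exp (2 * u) ≤ Real.exp (2 * u + K * D ^ (1 / 2 : ℝ) * u) :=
    Real.exp_le_exp.2 (by
      have : 0 ≤ K * D ^ (1 / 2 : ℝ) * u := by positivity
      linarith)
  have h4 : Real.exp (K * D ^ (1 / 2 : ℝ) * u) ≤ Real.exp (2 * u + K * D ^ (1 / 2 : ℝ) * u) :=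
    Real.exp_le_exp.2 (by linarith)
  have h5 : M + 1 ≤ Real.exp (M * u) := by
    have h6 := Real.add_one_le_exp (M * u)
    nlinarith
  calc C₁ + (X + x) + 2 * (D * u ^ 2) + (X + x) + Real.exp (K * D ^ (1 / 2 : ℝ) * u)
      ≤ M * Real.exp (2 * u + K * D ^ (1 / 2 : ℝ) * u) +
        Real.exp (2 * u + K * D ^ (1 / 2 : ℝ) * u) := by
        have := mul_le_mul_of_nonneg_left h3 hM0
        linarith
    _ = (M + 1) * Real.exp (2 * u + K * D ^ (1 / 2 : ℝ) * u) := by ring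
    _ ≤ Real.exp (M * u) * Real.exp (2 * u + K * D ^ (1 / 2 : ℝ) * u) :=
        mul_le_mul_of_nonneg_right h5 (Real.exp_pos _).le
    _ = Real.exp ((M + 2 + K * D ^ (1 / 2 : ℝ)) * u) := by
        rw [← Real.exp_add]
        congr 1
        ring

/-- near / far bound at one window, after division -/
theorem one_bd {C₁ K E ρ r R h N : ℝ} (hC₁ : 1 ≤ C₁) (hE : 0 < E) (hρ : 0 < ρ)
    (hr : ρ ≤ r) (hR : r ≤ R) (hh : 0 < h) (hhR : h ≤ R)
    (h1 : C₁ * E * (R / ρ) ^ (1 / 2 : ℝ) * (R / h) ^ 2 < 1 →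
      N ≤ C₁ * E * (R / ρ) ^ (1 / 2 : ℝ) * (R / h) ^ 2)
    (h2 : N ≤ (1 + Real.log (R / ρ)) * Real.exp (Real.exp (K * (R / h) ^ (1 / 2 : ℝ)))) :
    N / (E * (r / ρ) ^ (1 / 2 : ℝ) * (1 + Real.log (r / ρ))) ≤
      C₁ * (R / r) ^ (1 / 2 : ℝ) * (R / h) ^ 2 * (1 + Real.log (R / r)) *
        Real.exp (Real.exp (K * (R / h) ^ (1 / 2 : ℝ))) := by
  have hr0 : 0 < r := by linarith
  have hR0 : 0 < R := by linarith
  have a1 : 1 ≤ r / ρ := (one_le_div hρ).2 hr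
  have a2 : 1 ≤ R / r := (one_le_div hr0).2 hR
  have l1 : 0 ≤ Real.log (r / ρ) := Real.log_nonneg a1
  have l2 : 0 ≤ Real.log (R / r) := Real.log_nonneg a2
  have s1 : 0 < (r / ρ) ^ (1 / 2 : ℝ) := Real.rpow_pos_of_pos (by positivity) _
  have s2 : 0 < (R / r) ^ (1 / 2 : ℝ) := Real.rpow_pos_of_pos (by positivity) _
  have hq : 0 < R / h := by positivity
  have hsplit : (R / ρ) ^ (1 / 2 : ℝ) = (R / r) ^ (1 / 2 : ℝ) * (r / ρ) ^ (1 / 2 : ℝ) := by
    rw [← Real.mul_rpow (by positivity) (by positivity)]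
    congr 1
    field_simp
  have hlog : Real.log (R / ρ) = Real.log (R / r) + Real.log (r / ρ) := by
    rw [← Real.log_mul (by positivity) (by positivity)]
    congr 1
    field_simp
  set P : ℝ := C₁ * (R / r) ^ (1 / 2 : ℝ) * (R / h) ^ 2 with hP
  have hP0 : 0 < P := by
    have : 0 < C₁ := by linarith
    positivity
  set T : ℝ := Real.exp (Real.exp (K * (R / h) ^ (1 / 2 : ℝ))) with hT
  have hT1 : 1 ≤ T := Real.one_le_exp (Real.exp_pos _).le
  have hG : C₁ * E * (R / ρ) ^ (1 / 2 : ℝ) * (R / h) ^ 2 = E * (r / ρ) ^ (1 / 2 : ℝ) * P := by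
    rw [hsplit, hP]; ring
  have hden : 0 < E * (r / ρ) ^ (1 / 2 : ℝ) * (1 + Real.log (r / ρ)) := by positivity
  rw [div_le_iff₀ hden]
  have hone : 1 ≤ (1 + Real.log (R / r)) * T * (1 + Real.log (r / ρ)) := by
    have b1 : 1 ≤ 1 + Real.log (R / r) := by linarith
    have b2 : 1 ≤ 1 + Real.log (r / ρ) := by linarith
    calc (1 : ℝ) = 1 * 1 * 1 := by norm_num
      _ ≤ (1 + Real.log (R / r)) * T * (1 + Real.log (r / ρ)) :=
        mul_le_mul (mul_le_mul b1 hT1 zero_le_one (by linarith)) b2 zero_le_one (by positivity)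
  rcases lt_or_ge (C₁ * E * (R / ρ) ^ (1 / 2 : ℝ) * (R / h) ^ 2) 1 with hc | hc
  · have h3 := h1 hc
    rw [hG] at h3
    refine h3.trans ?_
    have h4 : 0 ≤ E * (r / ρ) ^ (1 / 2 : ℝ) * P := by positivity
    calc E * (r / ρ) ^ (1 / 2 : ℝ) * P = E * (r / ρ) ^ (1 / 2 : ℝ) * P * 1 := by ring
      _ ≤ E * (r / ρ) ^ (1 / 2 : ℝ) * P *
          ((1 + Real.log (R / r)) * T * (1 + Real.log (r / ρ))) :=
        mul_le_mul_of_nonneg_left hone h4
      _ = P * (1 + Real.log (R / r)) * T *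
          (E * (r / ρ) ^ (1 / 2 : ℝ) * (1 + Real.log (r / ρ))) := by ring
  · rw [hG] at hc
    refine h2.trans ?_
    rw [hlog]
    have h3 : 1 + (Real.log (R / r) + Real.log (r / ρ)) ≤
        (1 + Real.log (R / r)) * (1 + Real.log (r / ρ)) := by nlinarith
    calc (1 + (Real.log (R / r) + Real.log (r / ρ))) * T
        ≤ (1 + Real.log (R / r)) * (1 + Real.log (r / ρ)) * T :=
          mul_le_mul_of_nonneg_right h3 (by linarith)
      _ = (1 + Real.log (R / r)) * (1 + Real.log (r / ρ)) * T * 1 := by ring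
      _ ≤ (1 + Real.log (R / r)) * (1 + Real.log (r / ρ)) * T * (E * (r / ρ) ^ (1 / 2 : ℝ) * P) :=
          mul_le_mul_of_nonneg_left hc (by positivity)
      _ = P * (1 + Real.log (R / r)) * T *
          (E * (r / ρ) ^ (1 / 2 : ℝ) * (1 + Real.log (r / ρ))) := by ring

end Vale.Agent.P097.H690.St
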