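import Vale.Agent.P097.H690.St.TdCore
import Vale.Agent.P097.H509.St.TdOf
import Vale.Agent.P097.H103.T.LatAl
import Vale.Agent.P097.H19.Lat

/-!
# P097 / case [c] / block (T), straight line : rows `TdC` and `TdSt` of H509/St/Defs

`tdC : TdC`, `tdSt : TdSt` : the lines at the pick, normalised by the size `E₀`, on the compacts of
the wide tube, with growth `√(r'/r) (1 + log (r'/r))`.
-/

set_option linter.all false

open Complex Metric Filter Topology Set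

namespace Vale.Agent.P097.H690.St

open Vale.Agent.P097.TC Vale.Agent.P097.H226.W Vale.Agent.P097.H509.St

theorem pt_bridge (y : ℝ × ℝ) (h : ℝ) : H845.St.pt y.1 y.2 h = H146.pt y (h • aa) := by
  simp only [H845.St.pt, H146.pt, aa]
  refine Prod.ext ?_ ?_
  · simp; ring
  · simp; ring

theorem ax_pt (h : ℝ) : ax h = H845.St.pt 0 0 h := by
  simp only [H845.St.pt, ax]
  refine Prod.ext ?_ ?_ <;> simp

theorem im_le_norm {z : ℂ × ℂ} {R : ℝ} (h1 : ‖z‖ < R) : |z.1.re| < R ∧ |z.1.im| < R ∧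
    |z.2.re| < R ∧ |z.2.im| < R := by
  have a1 : ‖z.1‖ < R := (norm_fst_le z).trans_lt h1
  have a2 : ‖z.2‖ < R := (norm_snd_le z).trans_lt h1
  exact ⟨(Complex.abs_re_le_norm _).trans_lt a1, (Complex.abs_im_le_norm _).trans_lt a1,
    (Complex.abs_re_le_norm _).trans_lt a2, (Complex.abs_im_le_norm _).trans_lt a2⟩

/-- telescoping along the axis -/
theorem tele {f : ℝ → ℂ} {ρ Rm Ct : ℝ} (hρ : 0 < ρ) (hC : 0 ≤ Ct)
    (hf : ∀ t h : ℝ, ρ ≤ t → t ≤ h → h ≤ 2 * t → h ≤ Rm → ‖f t - f h‖ ≤ Ct) :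
    ∀ n : ℕ, ∀ R : ℝ, ρ ≤ R → R ≤ 2 ^ n * ρ → R ≤ Rm → ‖f ρ - f R‖ ≤ n * Ct := by
  intro n
  induction n with
  | zero =>
    intro R h1 h2 h3
    have : R = ρ := by
      rw [pow_zero, one_mul] at h2
      exact le_antisymm h2 h1
    rw [this, sub_self, norm_zero]
    simp
  | succ n ih =>
    intro R h1 h2 h3
    have hn : (1 : ℝ) ≤ 2 ^ n := one_le_pow₀ one_le_two
    have t1 : ρ ≤ max ρ (R / 2) := le_max_left _ _
    have t2 : max ρ (R / 2) ≤ R := max_le h1 (by linarith)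
    have t3 : R ≤ 2 * max ρ (R / 2) := by linarith [le_max_right ρ (R / 2)]
    have t4 : max ρ (R / 2) ≤ 2 ^ n * ρ := by
      refine max_le (le_mul_of_one_le_left hρ.le hn) ?_
      rw [pow_succ] at h2
      linarith
    have e1 := ih _ t1 t4 (t2.trans h3)
    have e2 := hf _ R t1 t2 t3 h3
    calc ‖f ρ - f R‖ = ‖(f ρ - f (max ρ (R / 2))) + (f (max ρ (R / 2)) - f R)‖ := by
          congr 1; ring
      _ ≤ n * Ct + Ct := (norm_add_le _ _).trans (add_le_add e1 e2)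
      _ = ((n + 1 : ℕ) : ℝ) * Ct := by push_cast; ring

theorem tele_log {f : ℝ → ℂ} {ρ Rm Ct : ℝ} (hρ : 0 < ρ) (hC : 0 ≤ Ct)
    (hf : ∀ t h : ℝ, ρ ≤ t → t ≤ h → h ≤ 2 * t → h ≤ Rm → ‖f t - f h‖ ≤ Ct) {R : ℝ}
    (h1 : ρ ≤ R) (h2 : R ≤ Rm) : ‖f ρ - f R‖ ≤ 2 * Ct * (1 + Real.log (R / ρ)) := by
  have hx : 1 ≤ R / ρ := (one_le_div hρ).2 h1
  obtain ⟨m, hm1, hm2⟩ := exists_nat_pow_near hx (one_lt_two (α := ℝ))
  rw [div_lt_iff₀ hρ] at hm2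
  have e1 := tele hρ hC hf (m + 1) R h1 hm2.le h2
  have e2 : (m : ℝ) * Real.log 2 ≤ Real.log (R / ρ) := by
    rw [← Real.log_pow]
    exact Real.log_le_log (by positivity) hm1
  have e3 : (1 / 2 : ℝ) ≤ Real.log 2 := by linarith [Real.log_two_gt_d9]
  have e4 : (m : ℝ) ≤ 2 * Real.log (R / ρ) := by
    have h0 : (0 : ℝ) ≤ m := Nat.cast_nonneg m
    nlinarith
  have e5 : ((m + 1 : ℕ) : ℝ) ≤ 2 * (1 + Real.log (R / ρ)) := by
    push_cast; linarith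
  calc ‖f ρ - f R‖ ≤ ((m + 1 : ℕ) : ℝ) * Ct := e1
    _ ≤ 2 * (1 + Real.log (R / ρ)) * Ct := mul_le_mul_of_nonneg_right e5 hC
    _ = _ := by ring

/-- polynomial and exponential against a double exponential -/
theorem poly_exp {M K V N : ℝ} (hM : 0 ≤ M) (hK : 0 ≤ K) (hV : 0 ≤ V) (hN : 0 ≤ N) :
    ∃ K' : ℝ, 0 ≤ K' ∧ ∀ Q : ℝ, 1 ≤ Q →
      M + K * Q ^ N * (1 + V) + Real.exp (K * Q ^ (1 / 2 : ℝ)) ≤
        Real.exp (K' * Q ^ (1 / 2 : ℝ)) := by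
  refine ⟨M + K * (1 + V) + (2 * N + K), by positivity, ?_⟩
  intro Q hQ
  have hQ0 : 0 < Q := by linarith
  obtain ⟨u, hu⟩ : ∃ u : ℝ, u = Q ^ (1 / 2 : ℝ) := ⟨_, rfl⟩
  have hu1 : 1 ≤ u := by rw [hu]; exact Real.one_le_rpow hQ (by norm_num)
  have hu0 : 0 < u := by linarith
  have hQu : Q ^ N = u ^ (2 * N) := by
    rw [hu, ← Real.rpow_mul hQ0.le]
    congr 1
    ring
  have e1 : u ^ (2 * N) ≤ Real.exp (2 * N * u) := by
    rw [Real.rpow_def_of_pos hu0]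
    apply Real.exp_le_exp.2
    have : Real.log u ≤ u := (Real.log_le_sub_one_of_pos hu0).trans (by linarith)
    calc Real.log u * (2 * N) ≤ u * (2 * N) := mul_le_mul_of_nonneg_right this (by positivity)
      _ = 2 * N * u := by ring
  rw [hQu, ← hu]
  have h1 : (1 : ℝ) ≤ Real.exp ((2 * N + K) * u) := Real.one_le_exp (by positivity)
  have h2 : Real.exp (2 * N * u) ≤ Real.exp ((2 * N + K) * u) :=
    Real.exp_le_exp.2 (by nlinarith [mul_nonneg hK hu0.le])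
  have h3 : Real.exp (K * u) ≤ Real.exp ((2 * N + K) * u) :=
    Real.exp_le_exp.2 (by nlinarith [mul_nonneg hN hu0.le])
  have hKV : 0 ≤ K * (1 + V) := by positivity
  have h4 : M + K * u ^ (2 * N) * (1 + V) + Real.exp (K * u) ≤
      (M + K * (1 + V) + 1) * Real.exp ((2 * N + K) * u) := by
    have a1 : M ≤ M * Real.exp ((2 * N + K) * u) := le_mul_of_one_le_right hM h1
    have a2 : K * u ^ (2 * N) * (1 + V) ≤ K * (1 + V) * Real.exp ((2 * N + K) * u) := by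
      calc K * u ^ (2 * N) * (1 + V) = K * (1 + V) * u ^ (2 * N) := by ring
        _ ≤ K * (1 + V) * Real.exp ((2 * N + K) * u) :=
          mul_le_mul_of_nonneg_left (e1.trans h2) hKV
    linarith
  refine h4.trans ?_
  have h5 : M + K * (1 + V) + 1 ≤ Real.exp ((M + K * (1 + V)) * u) := by
    have h6 := Real.add_one_le_exp ((M + K * (1 + V)) * u)
    have h7 : M + K * (1 + V) ≤ (M + K * (1 + V)) * u :=
      le_mul_of_one_le_right (by positivity) hu1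
    linarith
  calc (M + K * (1 + V) + 1) * Real.exp ((2 * N + K) * u)
      ≤ Real.exp ((M + K * (1 + V)) * u) * Real.exp ((2 * N + K) * u) :=
        mul_le_mul_of_nonneg_right h5 (Real.exp_pos _).le
    _ = Real.exp ((M + K * (1 + V) + (2 * N + K)) * u) := by
        rw [← Real.exp_add]; congr 1; ring

/-- the bounds of `lat_al` at all ancestors -/
def LB (al p : ℂ × ℂ → ℂ) (K N V X ρ : ℝ) : Prop :=
  ∀ h : ℝ, ρ ≤ h → (X + 5) * h ≤ 1 → ∀ ω : ℝ, 0 < ω → ω ≤ 1 → ∀ z : ℂ × ℂ,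
    ω * h ≤ -z.1.im → ω * h ≤ z.2.im → ‖z‖ ≤ X * h →
    ‖al z - al (ax h)‖ ≤ K * ω⁻¹ ^ N * (1 + V) + Real.exp (K * ω⁻¹ ^ (1 / 2 : ℝ)) ∧
    ‖p z‖ ≤ Real.exp (K * ω⁻¹ ^ N * (1 + V) + Real.exp (K * ω⁻¹ ^ (1 / 2 : ℝ)))

theorem lb_of {Λ b : ℝ} {F q : ℂ → ℂ} (cv : Cv Λ b F q) (gr : Grw b F q) {X om e V : ℝ}
    (hX : 2 ≤ X) (hom : 0 < om) (hom1 : om ≤ 1) (he : 0 < e) (hV : 0 ≤ V) :
    ∃ K : ℝ, 0 ≤ K ∧ ∃ N : ℝ, 0 ≤ N ∧ ∀ {al p th : ℂ × ℂ → ℂ}, SQ Λ b F q 1 al p th →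
      ∀ ρ : ℝ, 0 < ρ →
      (∀ h : ℝ, ρ ≤ h → (X + 5) * h ≤ 1 → Md b F th X om e h ∧ |Vq F al th h| ≤ V) →
      LB al p K N V X ρ := by
  obtain ⟨K₀, hK₀, N, hN, H⟩ := H103.T.lat_al H19.lat cv gr (1 / 2) (by norm_num) e X om he
    (by linarith) hom hom1
  refine ⟨K₀, by linarith, N, by linarith, ?_⟩
  intro al p th S ρ hρ hM h h1 h2 ω hω hω1 z z1 z2 z3
  obtain ⟨m1, m2⟩ := hM h h1 h2
  obtain ⟨-, k2, k3⟩ := H S h (by linarith) h2 m1 ω hω hω1 z z1 z2 z3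
  have hi : 0 < ω⁻¹ := inv_pos.2 hω
  have hK0 : 0 ≤ K₀ := by linarith
  have e1 : K₀ * ω⁻¹ ^ N * (1 + |Vq F al th h|) ≤ K₀ * ω⁻¹ ^ N * (1 + V) :=
    mul_le_mul_of_nonneg_left (by linarith) (by positivity)
  exact ⟨k2.trans (by linarith), k3.trans (Real.exp_le_exp.2 (by linarith))⟩

theorem ax_fst (t : ℝ) : (ax t).1.im = -t := by simp [ax]
theorem ax_snd (t : ℝ) : (ax t).2.im = t := by simp [ax]
theorem norm_ax {t : ℝ} (ht : 0 < t) : ‖ax t‖ ≤ t := by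
  refine norm_le_of ?_ ?_
  · simp only [ax]
    rw [norm_neg, norm_mul, Complex.norm_I, mul_one, Complex.norm_real,
      Real.norm_of_nonneg ht.le]
  · simp only [ax]
    rw [norm_mul, Complex.norm_I, mul_one, Complex.norm_real, Real.norm_of_nonneg ht.le]

/-- one step along the axis -/
noncomputable def Cs (K N V : ℝ) : ℝ := K * 2 ^ N * (1 + V) + Real.exp (K * 2 ^ (1 / 2 : ℝ))

theorem Cs_nonneg {K N V : ℝ} (hK : 0 ≤ K) (hV : 0 ≤ V) : 0 ≤ Cs K N V := by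
  unfold Cs; positivity

theorem lb_step {al p : ℂ × ℂ → ℂ} {K N V X ρ : ℝ} (L : LB al p K N V X ρ) (hX : 2 ≤ X)
    (hρ : 0 < ρ) {t h : ℝ} (h1 : ρ ≤ t) (h2 : t ≤ h) (h3 : h ≤ 2 * t) (h4 : h ≤ 1 / (X + 5)) :
    ‖al (ax t) - al (ax h)‖ ≤ Cs K N V := by
  have ht : 0 < t := by linarith
  have h5 : (X + 5) * h ≤ 1 := by
    rw [le_div_iff₀ (by linarith)] at h4
    linarith
  have h6 : t ≤ X * h := by nlinarith
  have k := (L h (by linarith) h5 (1 / 2) (by norm_num) (by norm_num) (ax t)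
    (by rw [ax_fst]; linarith) (by rw [ax_snd]; linarith) ((norm_ax ht).trans h6)).1
  have e1 : ((1 / 2 : ℝ))⁻¹ = 2 := by norm_num
  rw [e1] at k
  exact k

theorem lb_tele {al p : ℂ × ℂ → ℂ} {K N V X ρ : ℝ} (L : LB al p K N V X ρ) (hX : 2 ≤ X)
    (hK : 0 ≤ K) (hV : 0 ≤ V) (hρ : 0 < ρ) {R : ℝ} (h1 : ρ ≤ R) (hR : (X + 5) * R ≤ 1) :
    ‖al (ax R) - al (ax ρ)‖ ≤ 2 * Cs K N V * (1 + Real.log (R / ρ)) := by
  have hRm : R ≤ 1 / (X + 5) := by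
    rw [le_div_iff₀ (by linarith)]; linarith
  rw [norm_sub_rev]
  exact tele_log (f := fun t => al (ax t)) hρ (Cs_nonneg hK hV)
    (fun t h a1 a2 a3 a4 => lb_step L hX hρ a1 a2 a3 a4) h1 hRm

/-- the bound at one axis point, relative to the ancestor -/
theorem lb_pt {al p : ℂ × ℂ → ℂ} {K N V X ρ : ℝ} (L : LB al p K N V X ρ) (hX : 2 ≤ X)
    {y : ℝ × ℝ} {h R : ℝ} (hy : ‖y‖ ≤ R) (hh : 0 < h) (hhR : h ≤ R) (hρR : ρ ≤ R)
    (hR : (X + 5) * R ≤ 1) :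
    ‖al (H146.pt y (h • aa)) - al (ax R)‖ ≤
      K * (R / h) ^ N * (1 + V) + Real.exp (K * (R / h) ^ (1 / 2 : ℝ)) ∧
    ‖p (H146.pt y (h • aa))‖ ≤
      Real.exp (K * (R / h) ^ N * (1 + V) + Real.exp (K * (R / h) ^ (1 / 2 : ℝ))) := by
  have hR0 : 0 < R := by linarith
  have hz : ‖H146.pt y (h • aa)‖ ≤ X * R := by
    refine (H146.norm_pt_le _ _).trans ?_
    rw [norm_smul, norm_aa, mul_one, Real.norm_of_nonneg hh.le]
    nlinarith
  have hω : 0 < h / R := by positivity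
  have hω1 : h / R ≤ 1 := (div_le_one hR0).2 hhR
  have hωR : h / R * R = h := by field_simp
  have hz1 : (H146.pt y (h • aa)).1.im = -h := by
    rw [← pt_bridge]; simp
  have hz2 : (H146.pt y (h • aa)).2.im = h := by
    rw [← pt_bridge]; simp
  have hk := L R hρR hR (h / R) hω hω1 (H146.pt y (h • aa))
    (by rw [hωR, hz1]; linarith) (by rw [hωR, hz2]) hz
  have hinv : (h / R)⁻¹ = R / h := inv_div _ _
  rw [hinv] at hk
  exact hk

/-- **far bounds** of both lines at the axis points of the world -/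
theorem far_bd {K N V X : ℝ} (hX : 2 ≤ X) (hK : 0 ≤ K) (hN : 0 ≤ N) (hV : 0 ≤ V) :
    ∃ K' : ℝ, 0 ≤ K' ∧ ∀ {al p : ℂ × ℂ → ℂ}, ∀ ρ : ℝ, 0 < ρ → LB al p K N V X ρ →
      ∀ (y : ℝ × ℝ) (h R : ℝ), ‖y‖ ≤ R → 0 < h → h ≤ R → ρ ≤ R → (X + 5) * R ≤ 1 →
        ‖al (H146.pt y (h • aa)) - al (ax ρ)‖ ≤
          (1 + Real.log (R / ρ)) * Real.exp (Real.exp (K' * (R / h) ^ (1 / 2 : ℝ))) ∧
        ‖p (H146.pt y (h • aa)) - p (ax ρ)‖ ≤
          (1 + Real.log (R / ρ)) * Real.exp (Real.exp (K' * (R / h) ^ (1 / 2 : ℝ))) := by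
  have hCt0 : 0 ≤ Cs K N V := Cs_nonneg hK hV
  obtain ⟨K', hK', hpe⟩ := poly_exp (M := 2 * Cs K N V + 1) (K := K) (V := V) (N := N)
    (by positivity) hK hV hN
  refine ⟨K', hK', ?_⟩
  intro al p ρ hρ L y h R hy hh hhR hρR hR
  have hR0 : 0 < R := by linarith
  have hQ : 1 ≤ R / h := (one_le_div hh).2 hhR
  have hlg : 0 ≤ Real.log (R / ρ) := Real.log_nonneg ((one_le_div hρ).2 hρR)
  obtain ⟨k2, k3⟩ := lb_pt L hX hy hh hhR hρR hR
  have hP := hpe (R / h) hQ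
  obtain ⟨T, hT⟩ : ∃ T : ℝ, T = K * (R / h) ^ N * (1 + V) +
      Real.exp (K * (R / h) ^ (1 / 2 : ℝ)) := ⟨_, rfl⟩
  rw [← hT] at k2 k3
  have hT0 : 0 ≤ T := by rw [hT]; positivity
  obtain ⟨U, hU⟩ : ∃ U : ℝ, U = Real.exp (K' * (R / h) ^ (1 / 2 : ℝ)) := ⟨_, rfl⟩
  rw [← hU] at hP ⊢
  have hPT : 2 * Cs K N V + 1 + T ≤ U := by rw [hT]; linarith
  have hEE : U ≤ Real.exp U := by linarith [Real.add_one_le_exp U]
  constructor
  · have e2 := lb_tele L hX hK hV hρ hρR hR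
    calc ‖al (H146.pt y (h • aa)) - al (ax ρ)‖
        = ‖(al (H146.pt y (h • aa)) - al (ax R)) + (al (ax R) - al (ax ρ))‖ := by
          congr 1; ring
      _ ≤ T + 2 * Cs K N V * (1 + Real.log (R / ρ)) :=
          (norm_add_le _ _).trans (add_le_add k2 e2)
      _ ≤ (1 + Real.log (R / ρ)) * (2 * Cs K N V + 1 + T) := by
          have : 0 ≤ Real.log (R / ρ) * (1 + T) := mul_nonneg hlg (by linarith)
          linarith
      _ ≤ (1 + Real.log (R / ρ)) * Real.exp U :=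
          mul_le_mul_of_nonneg_left (hPT.trans hEE) (by linarith)
  · -- the bound of `p` at the pick
    have h5 : (X + 5) * ρ ≤ 1 := le_trans (mul_le_mul_of_nonneg_left hρR (by linarith)) hR
    have hx : ρ ≤ X * ρ := by nlinarith
    have j3 := (L ρ le_rfl h5 1 one_pos le_rfl (ax ρ) (by rw [ax_fst]; linarith)
      (by rw [ax_snd]; linarith) ((norm_ax hρ).trans hx)).2
    rw [inv_one, Real.one_rpow, Real.one_rpow, mul_one] at j3
    have e2 : ‖p (ax ρ)‖ ≤ Real.exp T := by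
      refine j3.trans (Real.exp_le_exp.2 ?_)
      rw [hT]
      have q1 : 1 ≤ (R / h) ^ N := Real.one_le_rpow hQ hN
      have q2 : 1 ≤ (R / h) ^ (1 / 2 : ℝ) := Real.one_le_rpow hQ (by norm_num)
      have q3 : K ≤ K * (R / h) ^ (1 / 2 : ℝ) := le_mul_of_one_le_right hK q2
      have q4 : Real.exp K ≤ Real.exp (K * (R / h) ^ (1 / 2 : ℝ)) := Real.exp_le_exp.2 q3
      have q5 : K * (1 + V) ≤ K * (R / h) ^ N * (1 + V) :=
        mul_le_mul_of_nonneg_right (le_mul_of_one_le_right hK q1) (by linarith)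
      linarith
    have e3 : 2 * Real.exp T ≤ Real.exp (1 + T) := by
      rw [Real.exp_add]
      have : (2 : ℝ) ≤ Real.exp 1 := by linarith [Real.add_one_le_exp (1 : ℝ)]
      exact mul_le_mul_of_nonneg_right this (Real.exp_pos _).le
    have e4 : Real.exp (1 + T) ≤ Real.exp U := Real.exp_le_exp.2 (by linarith)
    calc ‖p (H146.pt y (h • aa)) - p (ax ρ)‖
        ≤ Real.exp T + Real.exp T := (norm_sub_le _ _).trans (add_le_add k3 e2)
      _ ≤ 1 * Real.exp U := by linarith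
      _ ≤ (1 + Real.log (R / ρ)) * Real.exp U :=
          mul_le_mul_of_nonneg_right (by linarith) (Real.exp_pos _).le

/-- **near bound** from the chain -/
theorem near_bd {L : ℂ × ℂ → ℂ × ℂ} {Xp op C₀ E₀ r : ℝ} (hXp : 2 ≤ Xp) (hop : 0 < op)
    (hop2 : op ≤ 1 / 2) (hC₀ : 0 < C₀) (hE₀ : 0 < E₀) (hr : 0 < r)
    (hG : H845.St.Gd (fun y x h => Es L Xp op y x h) C₀ E₀ 0 0 r)
    (hO : H845.St.Osc L Xp op (fun y x h => Es L Xp op y x h)) {y : ℝ × ℝ} {h R : ℝ}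
    (hy : ‖y‖ ≤ R) (hh : 0 < h) (hhR : h ≤ R) (hrR : r ≤ R) (hR : 4 * R ≤ 1 / 8)
    (hs : (1280 * C₀ + 1) * E₀ * (R / r) ^ (1 / 2 : ℝ) * (R / h) ^ 2 < 1) :
    ‖L (H146.pt y (h • aa)) - L (H845.St.pt 0 0 r)‖ ≤
      (1280 * C₀ + 1) * E₀ * (R / r) ^ (1 / 2 : ℝ) * (R / h) ^ 2 := by
  have hR0 : 0 < R := by linarith
  have hy1 : |y.1| ≤ R := (norm_fst_le y).trans hy
  have hy2 : |y.2| ≤ R := (norm_snd_le y).trans hy
  have e0 : 40 * (C₀ * E₀ * (Real.sqrt (4 * R / r) * (4 * R / h) ^ 2)) ≤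
      (1280 * C₀ + 1) * E₀ * (R / r) ^ (1 / 2 : ℝ) * (R / h) ^ 2 := by
    have e1 : Real.sqrt (4 * R / r) = 2 * (R / r) ^ (1 / 2 : ℝ) := by
      rw [mul_div_assoc, Real.sqrt_mul (by norm_num), ← Real.sqrt_eq_rpow]
      congr 1
      rw [show (4 : ℝ) = 2 ^ 2 by norm_num, Real.sqrt_sq (by norm_num)]
    rw [e1]
    have h0 : 0 ≤ E₀ * (R / r) ^ (1 / 2 : ℝ) * (R / h) ^ 2 := by positivity
    have e2 : 40 * (C₀ * E₀ * (2 * (R / r) ^ (1 / 2 : ℝ) * (4 * R / h) ^ 2)) =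
        1280 * C₀ * (E₀ * (R / r) ^ (1 / 2 : ℝ) * (R / h) ^ 2) := by
      rw [mul_div_assoc, mul_pow]; ring
    rw [e2]
    calc 1280 * C₀ * (E₀ * (R / r) ^ (1 / 2 : ℝ) * (R / h) ^ 2)
        ≤ (1280 * C₀ + 1) * (E₀ * (R / r) ^ (1 / 2 : ℝ) * (R / h) ^ 2) :=
          mul_le_mul_of_nonneg_right (by linarith) h0
      _ = _ := by ring
  have key := H845.St.chain hXp hop.le hop2 hO hC₀.le hE₀.le (y₀ := 0) (x₀ := 0) (by simp)
    (by simp) hr hG (y := y.1) (x := y.2) (h := h) (R := 4 * R) (by linarith) (by linarith) hh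
    (by rw [sub_zero, sub_zero]; linarith) hR (lt_of_le_of_lt e0 hs)
  rw [dist_comm, dist_eq_norm, pt_bridge] at key
  exact key.trans e0

theorem smul_Wd {δ s : ℝ} (hs : 0 < s) {z : ℂ × ℂ} (hz : z ∈ Wd δ) : (s : ℂ) • z ∈ Wd δ := by
  rw [← im2_mem, im2_smul]
  exact Kd_smul s hs _ hz

/-- **row TD, centred form** -/
theorem tdC : TdC := by
  intro Λ b F q cv gr Xp op X om e V C₀ δ hXp hop hop2 hX hom hom2 he hV hC₀ hδ W hW hWδ
  have hX2 : 2 ≤ X := by linarith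
  obtain ⟨K₁, hK₁, N, hN, hlb⟩ := lb_of cv gr (X := X) (om := om) (e := e) (V := V) hX2 hom
    (by linarith) he hV
  obtain ⟨K, hK, hfar⟩ := far_bd (X := X) hX2 hK₁ hN hV
  obtain ⟨τ, hτ, hτ1, Z, hZ, hZ1, hτW, H⟩ := td_core hδ hW hWδ
  obtain ⟨C, hC, H⟩ := H (1280 * C₀ + 1) K (by linarith) hK
  obtain ⟨R₀, hR₀⟩ : ∃ R₀ : ℝ, R₀ = 1 / (X + 8) := ⟨_, rfl⟩
  have hR₀0 : 0 < R₀ := by rw [hR₀]; positivity
  have hR₀8 : R₀ ≤ 1 / 8 := by
    rw [hR₀]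
    exact div_le_div_of_nonneg_left (by norm_num) (by norm_num) (by linarith)
  have hR₀X : (X + 5) * R₀ ≤ 1 := by
    rw [hR₀, mul_one_div, div_le_one (by linarith)]
    linarith
  refine ⟨C / R₀, by positivity, τ * R₀, by positivity, by nlinarith,
    (fun z : ℂ × ℂ => (R₀ : ℂ) • z) '' Z, hZ.image (by fun_prop), ?_, ?_⟩
  · rintro _ ⟨z, hz, rfl⟩
    obtain ⟨h1, h2⟩ := hZ1 z hz
    refine ⟨im_le_norm ?_, smul_Wd hR₀0 h1⟩
    rw [norm_smul, Complex.norm_real, Real.norm_of_nonneg hR₀0.le]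
    nlinarith [norm_nonneg z]
  intro al p th S r E₀ hr hE₀ hE1 hMV hG hO A hA hZb r' hrr' hr' z hz
  have hr'0 : 0 < r' := by linarith
  have hsub : {z : ℂ × ℂ | z ∈ Wd δ ∧ ‖z‖ < R₀} ⊆ Bx 1 ∩ Wd δ := by
    rintro z ⟨h1, h2⟩
    exact ⟨im_le_norm (by linarith), h1⟩
  have hfst : ∀ a c : ℂ × ℂ, ‖al a - al c‖ ≤ ‖LL al p a - LL al p c‖ := fun a c =>
    norm_fst_le (LL al p a - LL al p c)
  have hsnd : ∀ a c : ℂ × ℂ, ‖p a - p c‖ ≤ ‖LL al p a - LL al p c‖ := fun a c =>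
    norm_snd_le (LL al p a - LL al p c)
  have hXR : ∀ R : ℝ, 4 * R ≤ R₀ → (X + 5) * R ≤ 1 := by
    intro R hR
    rcases le_or_gt R 0 with h0 | h0
    · nlinarith
    · calc (X + 5) * R ≤ (X + 5) * R₀ := mul_le_mul_of_nonneg_left (by linarith) (by linarith)
        _ ≤ 1 := hR₀X
  have Ya : Hy δ (1280 * C₀ + 1) K Z al (al (H845.St.pt 0 0 r)) R₀ r E₀ A := by
    refine ⟨hR₀0, hr, hE₀, hE1, hA, S.dal.mono hsub, ?_, ?_, ?_⟩
    · intro y h R h1 h2 h3 h4 h5 h6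
      exact (hfst _ _).trans (near_bd hXp hop hop2 hC₀ hE₀ hr hG hO h1 h2 h3 h4
        (by linarith) h6)
    · intro y h R h1 h2 h3 h4 h5
      rw [← ax_pt]
      exact (hfar r hr (hlb S.sq r hr hMV) y h R h1 h2 h3 h4 (hXR R h5)).1
    · intro z hz
      exact (hfst _ _).trans (hZb _ (mem_image_of_mem _ hz))
  have Yp : Hy δ (1280 * C₀ + 1) K Z p (p (H845.St.pt 0 0 r)) R₀ r E₀ A := by
    refine ⟨hR₀0, hr, hE₀, hE1, hA, S.dp.mono hsub, ?_, ?_, ?_⟩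
    · intro y h R h1 h2 h3 h4 h5 h6
      exact (hsnd _ _).trans (near_bd hXp hop hop2 hC₀ hE₀ hr hG hO h1 h2 h3 h4
        (by linarith) h6)
    · intro y h R h1 h2 h3 h4 h5
      rw [← ax_pt]
      exact (hfar r hr (hlb S.sq r hr hMV) y h R h1 h2 h3 h4 (hXR R h5)).2
    · intro z hz
      exact (hsnd _ _).trans (hZb _ (mem_image_of_mem _ hz))
  have hcc : cc E₀ r r' = E₀ * Real.sqrt (r' / r) * (1 + Real.log (r' / r)) := by
    unfold cc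
    rw [Real.sqrt_eq_rpow]
  have hcc0 : 0 ≤ cc E₀ r r' := hE₀.le.trans (cc_ge hE₀ hr hrr')
  have hlogE : Real.log (1 / E₀) = Real.log E₀⁻¹ := by rw [one_div]
  have hexp : C + C * (r' / R₀) * (A + Real.log (1 / E₀)) ≤
      C / R₀ + C / R₀ * r' * (A + max (Real.log E₀⁻¹) 0) := by
    have h1 : C ≤ C / R₀ := by
      rw [le_div_iff₀ hR₀0]
      nlinarith
    have h2 : C * (r' / R₀) = C / R₀ * r' := by ring
    rw [h2, hlogE]
    have h3 : 0 ≤ C / R₀ * r' := by positivity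
    have h4 := mul_le_mul_of_nonneg_left
      (add_le_add_right (le_max_left (Real.log E₀⁻¹) 0) A) h3
    linarith
  refine ⟨im_le_norm ?_, ?_⟩
  · rw [norm_smul, Complex.norm_real, Real.norm_of_nonneg hr'0.le]
    calc r' * ‖z‖ ≤ τ * R₀ * ‖z‖ := mul_le_mul_of_nonneg_right hr' (norm_nonneg _)
      _ = τ * ‖z‖ * R₀ := by ring
      _ ≤ 1 * R₀ := mul_le_mul_of_nonneg_right (hτW z hz).le hR₀0.le
      _ < 1 := by linarith
  · rw [← hcc]
    have b1 := H _ _ _ _ _ _ Ya r' hrr' hr' z hz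
    have b2 := H _ _ _ _ _ _ Yp r' hrr' hr' z hz
    have b3 := mul_le_mul_of_nonneg_left (Real.exp_le_exp.2 hexp) hcc0
    exact max_le (b1.trans b3) (b2.trans b3)

/-- **row TD** -/
theorem tdSt : TdSt := tdst_of tdC

end Vale.Agent.P097.H690.St
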