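import Vale.Agent.P097.H690.St.Core

/-!
# P097 / case [c] / block (T), straight line : `td_core`, the disc bound around a pick

One function `g` on the wide tube near the apex `0` (the pick after translation): window bounds of
type (G) on the axis points, an absolute bound of double exponential type in the relative depth, and
a bound on a compact at the macroscopic scale give the slow growth
`|g (r ζ) - g₀| ≤ E (r/ρ)^(1/2) (1 + log (r/ρ)) exp (C + C (r/R₀) (A + log (1/E)))`.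
-/

set_option linter.all false

open Complex Metric Filter Topology Set

namespace Vale.Agent.P097.H690.St

open Vale.Agent.P097.H146 Vale.Agent.P097.H226.W

theorem norm_aa : ‖aa‖ = 1 := by
  simp [aa, Prod.norm_def]

/-- the compact of the arcs -/
def Za (X' ω : ℝ) (V : Set (ℝ × ℝ)) : Set (ℂ × ℂ) :=
  (fun p : (ℝ × ℝ) × ℝ × ℝ × (ℝ × ℝ) => pt p.1 (p.2.1 • aa + p.2.2.1 • p.2.2.2)) ''
    (closedBall 0 (1 / 4) ×ˢ Icc (ω / (8 * X')) (1 / 4) ×ˢ Icc 0 (1 / (4 * X')) ×ˢ V)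

theorem Za_compact {X' ω : ℝ} {V : Set (ℝ × ℝ)} (hV : IsCompact V) : IsCompact (Za X' ω V) := by
  refine IsCompact.image ((isCompact_closedBall _ _).prod
    (isCompact_Icc.prod (isCompact_Icc.prod hV))) ?_
  unfold pt aa
  fun_prop

theorem Za_sub {δ X' ω MV : ℝ} (hδ : 0 < δ) (hω : 0 < ω) (hX : 1 ≤ X') {V : Set (ℝ × ℝ)}
    (hV : V ⊆ Kd δ) (hMV : ∀ v ∈ V, ‖v‖ ≤ MV) (hX2 : MV ≤ X') :
    ∀ z ∈ Za X' ω V, z ∈ Wd δ ∧ ‖z‖ < 1 := by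
  rintro _ ⟨⟨y, h, t, v⟩, ⟨h1, ⟨h2, h3⟩, ⟨h4, h5⟩, h6⟩, rfl⟩
  simp only at h1 h2 h3 h4 h5 h6 ⊢
  rw [mem_closedBall, dist_zero_right] at h1
  have hh : 0 < h := lt_of_lt_of_le (by positivity) h2
  constructor
  · rw [← im2_mem, im2_pt]
    have e1 : h • aa ∈ Kd δ := Kd_smul h hh _ (aa_mem hδ)
    rcases eq_or_lt_of_le h4 with e | e
    · rw [← e, zero_smul, add_zero]; exact e1
    · exact Kd_add _ e1 _ (Kd_smul t e _ (hV h6))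
  · refine (norm_pt_le _ _).trans_lt ?_
    have e1 : ‖h • aa + t • v‖ ≤ 1 / 4 + 1 / 4 := by
      refine (norm_add_le _ _).trans (add_le_add ?_ ?_)
      · rw [norm_smul, norm_aa, mul_one, Real.norm_of_nonneg hh.le]; exact h3
      · rw [norm_smul, Real.norm_of_nonneg h4]
        calc t * ‖v‖ ≤ 1 / (4 * X') * X' :=
              mul_le_mul h5 ((hMV v h6).trans hX2) (norm_nonneg _) (by positivity)
          _ = 1 / 4 := by field_simp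
    linarith

/-- the hypotheses on one function -/
structure Hy (δ C₁ K : ℝ) (Z : Set (ℂ × ℂ)) (g : ℂ × ℂ → ℂ) (g₀ : ℂ) (R₀ ρ E A : ℝ) : Prop where
  R0 : 0 < R₀
  rho : 0 < ρ
  E0 : 0 < E
  E1 : E ≤ 1
  A0 : 0 ≤ A
  dg : DifferentiableOn ℂ g {z | z ∈ Wd δ ∧ ‖z‖ < R₀}
  near : ∀ (y : ℝ × ℝ) (h R : ℝ), ‖y‖ ≤ R → 0 < h → h ≤ R → ρ ≤ R → 4 * R ≤ R₀ →
      C₁ * E * (R / ρ) ^ (1 / 2 : ℝ) * (R / h) ^ 2 < 1 →
      ‖g (pt y (h • aa)) - g₀‖ ≤ C₁ * E * (R / ρ) ^ (1 / 2 : ℝ) * (R / h) ^ 2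
  far : ∀ (y : ℝ × ℝ) (h R : ℝ), ‖y‖ ≤ R → 0 < h → h ≤ R → ρ ≤ R → 4 * R ≤ R₀ →
      ‖g (pt y (h • aa)) - g₀‖ ≤
        (1 + Real.log (R / ρ)) * Real.exp (Real.exp (K * (R / h) ^ (1 / 2 : ℝ)))
  arc : ∀ z ∈ Z, ‖g ((R₀ : ℂ) • z) - g₀‖ ≤ Real.exp A

/-- the normalisation -/
noncomputable def cc (E ρ r : ℝ) : ℝ := E * (r / ρ) ^ (1 / 2 : ℝ) * (1 + Real.log (r / ρ))

theorem cc_ge {E ρ r : ℝ} (hE : 0 < E) (hρ : 0 < ρ) (hr : ρ ≤ r) : E ≤ cc E ρ r := by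
  have hlg : 0 ≤ Real.log (r / ρ) := Real.log_nonneg ((one_le_div hρ).2 hr)
  have hs1 : 1 ≤ (r / ρ) ^ (1 / 2 : ℝ) :=
    Real.one_le_rpow ((one_le_div hρ).2 hr) (by norm_num)
  unfold cc
  rw [mul_assoc]
  have : 1 ≤ (r / ρ) ^ (1 / 2 : ℝ) * (1 + Real.log (r / ρ)) :=
    one_le_mul_of_one_le_of_one_le hs1 (by linarith)
  exact le_mul_of_one_le_right hE.le this

/-- one window -/
theorem Hy.win {δ C₁ K : ℝ} {Z : Set (ℂ × ℂ)} {g : ℂ × ℂ → ℂ} {g₀ : ℂ} {R₀ ρ E A : ℝ}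
    (Y : Hy δ C₁ K Z g g₀ R₀ ρ E A) (hC₁ : 1 ≤ C₁) {ω X X' Ca r : ℝ} (hω : 0 < ω) (hX : 1 ≤ X)
    (hX'X : X ≤ X') (hr : ρ ≤ r) {n : ℕ} (hn1 : 2 ^ n * (4 * X' * r) ≤ R₀)
    (hab : ∀ k : ℕ, ∀ q : ℝ, 0 < q → q ≤ (2 * X / ω + 1) * ((k : ℝ) + 1) ^ (3 / 2 : ℝ) →
      C₁ * (X * 2 ^ (k + 1)) ^ (1 / 2 : ℝ) * q ^ 2 * (1 + Real.log (X * 2 ^ (k + 1))) *
        Real.exp (Real.exp (K * q ^ (1 / 2 : ℝ))) ≤
      Real.exp (Real.exp (Ca * ((k : ℝ) + 1) ^ (3 / 4 : ℝ)))) {k : ℕ}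
    (hk : 2 ^ (k + 1) ≤ (2 : ℝ) ^ n) {y : ℝ × ℝ} {h : ℝ} (i1 : ‖y‖ ≤ X * 2 ^ (k + 1))
    (i2 : ω * pr k * 2 ^ k ≤ h) (i3 : h ≤ X * 2 ^ (k + 1)) :
    ‖g ((r : ℂ) • pt y (h • aa)) - g₀‖ / cc E ρ r ≤
      Real.exp (Real.exp (Ca * ((k : ℝ) + 1) ^ (3 / 4 : ℝ))) := by
  have hr0 : 0 < r := lt_of_lt_of_le Y.rho hr
  have hX'0 : 0 < X' := by linarith
  have hpr := pr_pos k
  have h2k : (0 : ℝ) < 2 ^ k := by positivity
  have hh : 0 < h := lt_of_lt_of_le (by positivity) i2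
  have h2k1 : (1 : ℝ) ≤ 2 ^ (k + 1) := one_le_pow₀ one_le_two
  obtain ⟨R, hR⟩ : ∃ R : ℝ, R = X * 2 ^ (k + 1) * r := ⟨_, rfl⟩
  have hRr : r ≤ R := by
    rw [hR]
    exact le_mul_of_one_le_left hr0.le (one_le_mul_of_one_le_of_one_le hX h2k1)
  have hR0 : 0 < R := lt_of_lt_of_le hr0 hRr
  have hR4 : 4 * R ≤ R₀ := by
    refine le_trans ?_ hn1
    rw [hR]
    have e1 : X * 2 ^ (k + 1) ≤ X' * 2 ^ n := mul_le_mul hX'X hk (by positivity) hX'0.le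
    calc 4 * (X * 2 ^ (k + 1) * r) = 4 * r * (X * 2 ^ (k + 1)) := by ring
      _ ≤ 4 * r * (X' * 2 ^ n) := mul_le_mul_of_nonneg_left e1 (by positivity)
      _ = 2 ^ n * (4 * X' * r) := by ring
  have ey : ‖r • y‖ ≤ R := by
    rw [norm_smul, Real.norm_of_nonneg hr0.le, hR, mul_comm]
    exact mul_le_mul_of_nonneg_right i1 hr0.le
  have eh : 0 < r * h := by positivity
  have ehR : r * h ≤ R := by
    rw [hR, mul_comm]
    exact mul_le_mul_of_nonneg_right i3 hr0.le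
  have e0 : (r : ℂ) • pt y (h • aa) = pt (r • y) ((r * h) • aa) := by
    rw [smul_pt, smul_smul]
  have hρR : ρ ≤ R := hr.trans hRr
  have key := one_bd (N := ‖g (pt (r • y) ((r * h) • aa)) - g₀‖) (K := K) hC₁ Y.E0 Y.rho hr hRr
    eh ehR (Y.near (r • y) (r * h) R ey eh ehR hρR hR4)
    (Y.far (r • y) (r * h) R ey eh ehR hρR hR4)
  have e1 : R / r = X * 2 ^ (k + 1) := by rw [hR]; field_simp
  have e2 : R / (r * h) = X * 2 ^ (k + 1) / h := by rw [hR]; field_simp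
  rw [e1, e2] at key
  rw [e0]
  refine key.trans (hab k _ (by positivity) ?_)
  rw [div_le_iff₀ hh]
  have e3 : ((k : ℝ) + 1) ^ (3 / 2 : ℝ) * pr k = 1 := by
    unfold pr
    rw [← Real.rpow_add (by positivity)]
    norm_num
  have e4 : 0 < ((k : ℝ) + 1) ^ (3 / 2 : ℝ) := by positivity
  calc X * 2 ^ (k + 1) = 2 * X / ω * (((k : ℝ) + 1) ^ (3 / 2 : ℝ) * pr k) * (ω * 2 ^ k) := by
        rw [e3]; field_simp; ring
    _ = 2 * X / ω * ((k : ℝ) + 1) ^ (3 / 2 : ℝ) * (ω * pr k * 2 ^ k) := by ring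
    _ ≤ 2 * X / ω * ((k : ℝ) + 1) ^ (3 / 2 : ℝ) * h :=
        mul_le_mul_of_nonneg_left i2 (by positivity)
    _ ≤ (2 * X / ω + 1) * ((k : ℝ) + 1) ^ (3 / 2 : ℝ) * h := by
        refine mul_le_mul_of_nonneg_right (mul_le_mul_of_nonneg_right ?_ e4.le) hh.le
        linarith

/-- the arc -/
theorem Hy.arcb {δ C₁ K : ℝ} {ω X X' MV : ℝ} {V : Set (ℝ × ℝ)} {g : ℂ × ℂ → ℂ} {g₀ : ℂ}
    {R₀ ρ E A : ℝ} (Y : Hy δ C₁ K (Za X' ω V) g g₀ R₀ ρ E A) {r : ℝ} (hω : 0 < ω)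
    (hX : 1 ≤ X) (hX'X : X ≤ X') (hr : ρ ≤ r) {n : ℕ} (hn1 : 2 ^ n * (4 * X' * r) ≤ R₀)
    (hn2 : R₀ < 2 ^ (n + 1) * (4 * X' * r)) {v : ℝ × ℝ} (hv : v ∈ V) {y : ℝ × ℝ} {h t : ℝ}
    (i1 : ‖y‖ ≤ X * 2 ^ n) (i2 : ω * 2 ^ n ≤ h) (i3 : h ≤ X * 2 ^ n) (i4 : 0 ≤ t)
    (i5 : t ≤ 2 ^ n) :
    ‖g ((r : ℂ) • pt y (h • aa + t • v)) - g₀‖ / cc E ρ r ≤
      Real.exp (A + Real.log (1 / E)) := by
  have hr0 : 0 < r := lt_of_lt_of_le Y.rho hr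
  have hR₀ := Y.R0
  have hX'0 : 0 < X' := by linarith
  have hσ1 : r / R₀ * 2 ^ n ≤ 1 / (4 * X') := by
    rw [div_mul_eq_mul_div, div_le_div_iff₀ hR₀ (by positivity)]
    calc r * 2 ^ n * (4 * X') = 2 ^ n * (4 * X' * r) := by ring
      _ ≤ 1 * R₀ := by linarith
  have hσ2 : 1 / (8 * X') ≤ r / R₀ * 2 ^ n := by
    rw [div_mul_eq_mul_div, div_le_div_iff₀ (by positivity) hR₀]
    calc 1 * R₀ ≤ 2 ^ (n + 1) * (4 * X' * r) := by linarith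
      _ = r * 2 ^ n * (8 * X') := by rw [pow_succ]; ring
  have hσ : 0 < r / R₀ := by positivity
  have e0 : (r : ℂ) • pt y (h • aa + t • v) =
      (R₀ : ℂ) • pt ((r / R₀) • y) ((r / R₀ * h) • aa + (r / R₀ * t) • v) := by
    have e : ∀ x : ℝ, R₀ * (r / R₀ * x) = r * x := by intro x; field_simp
    have e' : R₀ * (r / R₀) = r := by field_simp
    rw [smul_pt, smul_pt, smul_smul, e', smul_add, smul_add, smul_smul, smul_smul, smul_smul,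
      smul_smul, e, e]
  have hmem : pt ((r / R₀) • y) ((r / R₀ * h) • aa + (r / R₀ * t) • v) ∈ Za X' ω V := by
    have f1 : ‖(r / R₀) • y‖ ≤ 1 / 4 := by
      rw [norm_smul, Real.norm_of_nonneg hσ.le]
      calc r / R₀ * ‖y‖ ≤ r / R₀ * (X * 2 ^ n) := mul_le_mul_of_nonneg_left i1 hσ.le
        _ = X * (r / R₀ * 2 ^ n) := by ring
        _ ≤ X' * (1 / (4 * X')) := mul_le_mul hX'X hσ1 (by positivity) hX'0.le
        _ = 1 / 4 := by field_simp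
    have f2 : ω / (8 * X') ≤ r / R₀ * h := by
      calc ω / (8 * X') = ω * (1 / (8 * X')) := by ring
        _ ≤ ω * (r / R₀ * 2 ^ n) := mul_le_mul_of_nonneg_left hσ2 hω.le
        _ = r / R₀ * (ω * 2 ^ n) := by ring
        _ ≤ r / R₀ * h := mul_le_mul_of_nonneg_left i2 hσ.le
    have f3 : r / R₀ * h ≤ 1 / 4 := by
      calc r / R₀ * h ≤ r / R₀ * (X * 2 ^ n) := mul_le_mul_of_nonneg_left i3 hσ.le
        _ = X * (r / R₀ * 2 ^ n) := by ring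
        _ ≤ X' * (1 / (4 * X')) := mul_le_mul hX'X hσ1 (by positivity) hX'0.le
        _ = 1 / 4 := by field_simp
    have f4 : 0 ≤ r / R₀ * t := mul_nonneg hσ.le i4
    have f5 : r / R₀ * t ≤ 1 / (4 * X') := (mul_le_mul_of_nonneg_left i5 hσ.le).trans hσ1
    exact ⟨((r / R₀) • y, r / R₀ * h, r / R₀ * t, v), ⟨by rwa [mem_closedBall, dist_zero_right],
      ⟨f2, f3⟩, ⟨f4, f5⟩, hv⟩, rfl⟩
  rw [e0]
  have h4 := Y.arc _ hmem
  have hE := Y.E0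
  calc ‖g ((R₀ : ℂ) • pt ((r / R₀) • y) ((r / R₀ * h) • aa + (r / R₀ * t) • v)) - g₀‖ / cc E ρ r
      ≤ Real.exp A / E := div_le_div₀ (Real.exp_pos _).le h4 hE (cc_ge hE Y.rho hr)
    _ = Real.exp (A + Real.log (1 / E)) := by
      rw [Real.exp_add, Real.exp_log (by positivity)]
      field_simp

theorem Hy.diff {δ C₁ K : ℝ} {Z : Set (ℂ × ℂ)} {g : ℂ × ℂ → ℂ} {g₀ : ℂ} {R₀ ρ E A : ℝ}
    (Y : Hy δ C₁ K Z g g₀ R₀ ρ E A) {X X' r : ℝ} (hX : 1 ≤ X) (hX'X : X ≤ X') (hr : ρ ≤ r)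
    {n : ℕ} (hn1 : 2 ^ n * (4 * X' * r) ≤ R₀) (c : ℂ) :
    DifferentiableOn ℂ (fun z : ℂ × ℂ => c⁻¹ * (g ((r : ℂ) • z) - g₀))
      {z | im2 z ∈ Kd δ ∧ ‖z‖ < 4 * X * 2 ^ n} := by
  have hr0 : 0 < r := lt_of_lt_of_le Y.rho hr
  have hgd : DifferentiableOn ℂ (fun z : ℂ × ℂ => g ((r : ℂ) • z))
      {z | im2 z ∈ Kd δ ∧ ‖z‖ < 4 * X * 2 ^ n} := by
    refine Y.dg.comp (f := fun z : ℂ × ℂ => (r : ℂ) • z)
      ((differentiable_id.const_smul (r : ℂ)).differentiableOn) ?_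
    rintro z ⟨h4, h5⟩
    refine ⟨?_, ?_⟩
    · rw [← im2_mem, im2_smul]
      exact Kd_smul r hr0 _ h4
    · rw [norm_smul, Complex.norm_real, Real.norm_of_nonneg hr0.le]
      calc r * ‖z‖ < r * (4 * X * 2 ^ n) := mul_lt_mul_of_pos_left h5 hr0
        _ = 4 * r * 2 ^ n * X := by ring
        _ ≤ 4 * r * 2 ^ n * X' := mul_le_mul_of_nonneg_left hX'X (by positivity)
        _ = 2 ^ n * (4 * X' * r) := by ring
        _ ≤ R₀ := hn1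
  exact (hgd.sub_const g₀).const_mul c⁻¹

theorem td_core {δ : ℝ} (hδ : 0 < δ) {W : Set (ℂ × ℂ)} (hW : IsCompact W) (hWd : W ⊆ Wd δ) :
    ∃ τ : ℝ, 0 < τ ∧ τ ≤ 1 ∧ ∃ Z : Set (ℂ × ℂ), IsCompact Z ∧ (∀ z ∈ Z, z ∈ Wd δ ∧ ‖z‖ < 1) ∧
    (∀ ζ ∈ W, τ * ‖ζ‖ < 1) ∧
    ∀ C₁ K : ℝ, 1 ≤ C₁ → 0 ≤ K → ∃ C : ℝ, 0 ≤ C ∧
    ∀ (g : ℂ × ℂ → ℂ) (g₀ : ℂ) (R₀ ρ E A : ℝ), Hy δ C₁ K Z g g₀ R₀ ρ E A → ∀ r : ℝ, ρ ≤ r →
    r ≤ τ * R₀ → ∀ ζ ∈ W, ‖g ((r : ℂ) • ζ) - g₀‖ ≤ cc E ρ r *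
      Real.exp (C + C * (r / R₀) * (A + Real.log (1 / E))) := by
  obtain ⟨ω, hω, X, hX, V, hV, hVK, H⟩ := half_prof (Kd_open δ) Kd_add Kd_smul (aa_mem hδ) hW
    (fun z hz => im2_mem.2 (hWd hz))
  obtain ⟨MV, hMV⟩ := hV.isBounded.exists_norm_le
  obtain ⟨MW, hMW⟩ := hW.isBounded.exists_norm_le
  obtain ⟨X', hX'⟩ : ∃ X' : ℝ, X' = X + |MV| + |MW| := ⟨_, rfl⟩
  have hX'X : X ≤ X' := by rw [hX']; linarith [abs_nonneg MV, abs_nonneg MW]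
  have hX'1 : 1 ≤ X' := by linarith
  have hX'0 : 0 < X' := by linarith
  have hX'V : MV ≤ X' := by rw [hX']; linarith [le_abs_self MV, abs_nonneg MW]
  have hX'W : MW ≤ X' := by rw [hX']; linarith [le_abs_self MW, abs_nonneg MV]
  refine ⟨1 / (8 * X'), by positivity, ?_, Za X' ω V, Za_compact hV,
    Za_sub hδ hω hX'1 hVK hMV hX'V, ?_, ?_⟩
  · rw [div_le_one (by positivity)]; linarith
  · intro ζ hζ
    calc 1 / (8 * X') * ‖ζ‖ ≤ 1 / (8 * X') * X' :=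
          mul_le_mul_of_nonneg_left ((hMW ζ hζ).trans hX'W) (by positivity)
      _ = 1 / 8 := by field_simp
      _ < 1 := by norm_num
  intro C₁ K hC₁ hK
  have hD1 : 1 ≤ 2 * X / ω + 1 := by
    have : 0 ≤ 2 * X / ω := by positivity
    linarith
  obtain ⟨Ca, hCa, hab⟩ := absorb (C₁ := C₁) (K := K) (X := X) hC₁ hK hX hD1
  obtain ⟨M, hM, H⟩ := H (Ca + Real.exp Ca) (3 / 4) 0 (by positivity) (by norm_num) (by norm_num)
  refine ⟨max M (16 * X'), le_trans hM (le_max_left _ _), ?_⟩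
  intro g g₀ R₀ ρ E A Y r hρr hr ζ hζ
  have hR₀ := Y.R0
  have hρ := Y.rho
  have hE := Y.E0
  have hr0 : 0 < r := lt_of_lt_of_le hρ hρr
  have hx2 : 2 ≤ R₀ / (4 * X' * r) := by
    rw [le_div_iff₀ (by positivity)]
    calc 2 * (4 * X' * r) = r * (8 * X') := by ring
      _ ≤ 1 / (8 * X') * R₀ * (8 * X') := mul_le_mul_of_nonneg_right hr (by positivity)
      _ = R₀ := by field_simp
  obtain ⟨n, hn1, hn2⟩ := exists_nat_pow_near (x := R₀ / (4 * X' * r)) (y := (2 : ℝ))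
    (by linarith) one_lt_two
  have hn : 1 ≤ n := by
    by_contra hcon
    have h0 : n = 0 := by omega
    rw [h0] at hn2
    norm_num at hn2
    linarith
  rw [le_div_iff₀ (by positivity)] at hn1
  rw [div_lt_iff₀ (by positivity)] at hn2
  have h2n : (1 : ℝ) ≤ 2 ^ n := one_le_pow₀ one_le_two
  have hcE : E ≤ cc E ρ r := cc_ge hE hρ hρr
  have hc0 : 0 < cc E ρ r := lt_of_lt_of_le hE hcE
  have hcn : ∀ x : ℂ, ‖((cc E ρ r : ℝ) : ℂ)⁻¹ * x‖ = ‖x‖ / cc E ρ r := by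
    intro x
    rw [norm_mul, norm_inv, Complex.norm_real, Real.norm_of_nonneg hc0.le, inv_mul_eq_div]
  have hA' : 0 ≤ A + Real.log (1 / E) := by
    have h0 : 0 ≤ Real.log (1 / E) := Real.log_nonneg ((one_le_div hE).2 Y.E1)
    linarith [Y.A0]
  have key := H n (fun z => ((cc E ρ r : ℝ) : ℂ)⁻¹ * (g ((r : ℂ) • z) - g₀)) hn
    (Y.diff hX hX'X hρr hn1 _) (fun _ => 0) (A + Real.log (1 / E)) (fun _ => le_rfl) hA' le_rfl
    (by simp) ?_ ?_ ?_ ζ hζ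
  · -- conclusion
    rw [hcn, div_le_iff₀ hc0, mul_comm] at key
    refine key.trans (mul_le_mul_of_nonneg_left (Real.exp_le_exp.2 ?_) hc0.le)
    have e2 : (1 / 2 : ℝ) ^ n ≤ 8 * X' * (r / R₀) := by
      rw [one_div, inv_pow, inv_le_comm₀ (by positivity) (by positivity)]
      have e3 : (8 * X' * (r / R₀))⁻¹ = R₀ / (8 * X' * r) := by
        field_simp
      rw [e3, div_le_iff₀ (by positivity)]
      calc R₀ ≤ 2 ^ (n + 1) * (4 * X' * r) := hn2.le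
        _ = 2 ^ n * (8 * X' * r) := by rw [pow_succ]; ring
    have e4 : M ≤ max M (16 * X') := le_max_left _ _
    have e5 : 16 * X' ≤ max M (16 * X') := le_max_right _ _
    have e6 : 0 ≤ (r / R₀) * (A + Real.log (1 / E)) := mul_nonneg (by positivity) hA'
    calc M + 2 * (A + Real.log (1 / E)) * (1 / 2) ^ n
        ≤ M + 2 * (A + Real.log (1 / E)) * (8 * X' * (r / R₀)) := by
          have := mul_le_mul_of_nonneg_left e2 (by positivity : 0 ≤ 2 * (A + Real.log (1 / E)))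
          linarith
      _ = M + 16 * X' * ((r / R₀) * (A + Real.log (1 / E))) := by ring
      _ ≤ max M (16 * X') + max M (16 * X') * ((r / R₀) * (A + Real.log (1 / E))) :=
          add_le_add e4 (mul_le_mul_of_nonneg_right e5 e6)
      _ = _ := by ring
  · -- base
    intro y h i1 i2 i3
    have h21 : (2 : ℝ) ^ (0 + 1) ≤ 2 ^ n := pow_le_pow_right₀ one_le_two hn
    have hp0 : pr 0 = 1 := by simp [pr]
    rw [hcn]
    have := Y.win (k := 0) hC₁ hω hX hX'X hρr hn1 hab h21 (y := y) (h := h)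
      (by norm_num; linarith) (by rw [hp0]; simpa using i2) (by norm_num; linarith)
    refine this.trans (Real.exp_le_exp.2 ?_)
    norm_num
    linarith
  · intro k hk y h i1 i2 i3
    rw [hcn]
    refine (Y.win hC₁ hω hX hX'X hρr hn1 hab (pow_le_pow_right₀ one_le_two hk) i1 i2 i3).trans
      (Real.exp_le_exp.2 ?_)
    rw [add_zero, mul_one]
    apply Real.exp_le_exp.2
    have : 0 ≤ ((k : ℝ) + 1) ^ (3 / 4 : ℝ) := by positivity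
    apply mul_le_mul_of_nonneg_right _ this
    linarith [Real.exp_pos Ca]
  · intro v hv y h t i1 i2 i3 i4 i5
    rw [hcn]
    exact Y.arcb (MV := MV) hω hX hX'X hρr hn1 hn2 hv i1 i2 i3 i4 i5

end Vale.Agent.P097.H690.St
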